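import Vale.Agent.P088.All
import Vale.Agent.P088.Stmt

open Vale.Agent.P088.S MeasureTheory
open scoped Manifold ContDiff

/-- A smooth metric and a smooth unitary connection are determined, up to diffeomorphisms and
gauge transformations that are trivial on `Γ`, by the data on the boundary patch `Γ`. -/
theorem Vale.Agent.Results.P088.Calderon.result (n N : ℕ) [NeZero n] (hn : 3 ≤ n) (hN : 1 ≤ N)
    (M : Type) [TopologicalSpace M] [T2Space M] [CompactSpace M] [ConnectedSpace M]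
    [ChartedSpace (EuclideanHalfSpace n) M] [IsManifold (𝓡∂ n) ∞ M] [MeasurableSpace M]
    [BorelSpace M] (Γ : Set M) (hΓ : Γ.Nonempty)
    (hΓo : ∃ O, IsOpen O ∧ Γ = O ∩ (𝓡∂ n).boundary M)
    (g₁ g₂ : Bil (𝓡∂ n) M) (A₁ A₂ : Form1 (𝓡∂ n) M N)
    (hg₁ : IsMetric (𝓡∂ n) (ee n) g₁) (hg₂ : IsMetric (𝓡∂ n) (ee n) g₂)
    (hA₁ : IsUnitaryConn (𝓡∂ n) (ee n) A₁) (hA₂ : IsUnitaryConn (𝓡∂ n) (ee n) A₂)
    (h : SameData (𝓡∂ n) (ee n) volume Γ g₁ A₁ g₂ A₂) :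
    Related (𝓡∂ n) Γ g₁ A₁ g₂ A₂ :=
  Vale.Agent.P088.Asm.a_main n N hn hN M Γ hΓ hΓo g₁ g₂ A₁ A₂ hg₁ hg₂ hA₁ hA₂ h
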